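import Mathlib

open MeasureTheory Set
open scoped InnerProductSpace

namespace Vale.Agent.P243

abbrev E3 := EuclideanSpace ℝ (Fin 3)

/-- triple product -/
def det3 (e f u : E3) : ℝ :=
  (e 1 * f 2 - e 2 * f 1) * u 0 + (e 2 * f 0 - e 0 * f 2) * u 1 + (e 0 * f 1 - e 1 * f 0) * u 2

lemma inner3 (x y : E3) : ⟪x, y⟫_ℝ = x 0 * y 0 + x 1 * y 1 + x 2 * y 2 := by
  simp [PiLp.inner_apply, Fin.sum_univ_three]; ring

lemma norm3 (x : E3) : ‖x‖ ^ 2 = x 0 ^ 2 + x 1 ^ 2 + x 2 ^ 2 := by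
  rw [← real_inner_self_eq_norm_sq, inner3]; ring

lemma proj_val (u : E3) (hu : ‖u‖ = 1) (x : E3) :
    (((ℝ ∙ u)ᗮ.orthogonalProjectionOnto x : (ℝ ∙ u)ᗮ) : E3) = x - ⟪u, x⟫_ℝ • u := by
  have := Submodule.starProjection_orthogonal_val (K := ℝ ∙ u) x
  rw [Submodule.starProjection_unit_singleton ℝ hu] at this
  exact this

lemma proj_inner (u : E3) (hu : ‖u‖ = 1) (x y : E3) :
    ⟪(ℝ ∙ u)ᗮ.orthogonalProjectionOnto x, (ℝ ∙ u)ᗮ.orthogonalProjectionOnto y⟫_ℝ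
      = ⟪x, y⟫_ℝ - ⟪u, x⟫_ℝ * ⟪u, y⟫_ℝ := by
  rw [Submodule.coe_inner, proj_val u hu, proj_val u hu]
  simp only [inner_sub_left, inner_sub_right, inner_smul_left, inner_smul_right,
    real_inner_self_eq_norm_sq, hu, real_inner_comm u x]
  simp

lemma vol_image (u : E3) (hu : ‖u‖ = 1) (o e f : E3) (S : Set (ℝ × ℝ)) :
    volume ((fun z : ℝ × ℝ => (ℝ ∙ u)ᗮ.orthogonalProjectionOnto (o + z.1 • e + z.2 • f)) '' S)
      = ENNReal.ofReal |det3 e f u| * volume S := by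
  have hu0 : u ≠ 0 := by rintro rfl; simp at hu
  have : Fact (Module.finrank ℝ E3 = 2 + 1) := ⟨by simp⟩
  have hfr : Module.finrank ℝ (ℝ ∙ u)ᗮ = 2 := Submodule.finrank_orthogonal_span_singleton hu0
  set P := (ℝ ∙ u)ᗮ.orthogonalProjectionOnto with hP
  let b : OrthonormalBasis (Fin 2) ℝ (ℝ ∙ u)ᗮ := (stdOrthonormalBasis ℝ _).reindex (finCongr hfr)
  let Φ : (ℝ ∙ u)ᗮ ≃ᵐ ℝ × ℝ := b.measurableEquiv.trans
    ((MeasurableEquiv.toLp 2 (Fin 2 → ℝ)).symm.trans MeasurableEquiv.finTwoArrow)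
  have hΦ : MeasurePreserving Φ volume volume :=
    ((volume_preserving_finTwoArrow ℝ).comp
      (EuclideanSpace.volume_preserving_symm_measurableEquiv_toLp (Fin 2))).comp
      b.measurePreserving_repr
  have hΦa : ∀ z, Φ z = (⟪b 0, z⟫_ℝ, ⟪b 1, z⟫_ℝ) := by
    intro z
    rw [← b.repr_apply_apply, ← b.repr_apply_apply]
    rfl
  let L : ℝ × ℝ →ₗ[ℝ] ℝ × ℝ := Matrix.toLin (Module.Basis.finTwoProd ℝ) (Module.Basis.finTwoProd ℝ)
    !![⟪b 0, P e⟫_ℝ, ⟪b 0, P f⟫_ℝ; ⟪b 1, P e⟫_ℝ, ⟪b 1, P f⟫_ℝ]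
  have hset : (fun z : ℝ × ℝ => P (o + z.1 • e + z.2 • f)) '' S
      = Φ ⁻¹' ((fun w => Φ (P o) + w) '' (L '' S)) := by
    have h1 : ∀ z : ℝ × ℝ, Φ (P (o + z.1 • e + z.2 • f)) = Φ (P o) + L z := by
      intro z
      rw [hΦa, hΦa]
      simp only [L, Matrix.toLin_finTwoProd_apply, map_add, map_smul, inner_add_right,
        inner_smul_right, Prod.mk_add_mk]
      ext <;> simp <;> ring
    ext y
    simp only [mem_image, mem_preimage]
    constructor
    · rintro ⟨z, hz, rfl⟩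
      exact ⟨L z, ⟨z, hz, rfl⟩, (h1 z).symm⟩
    · rintro ⟨_, ⟨z, hz, rfl⟩, h⟩
      exact ⟨z, hz, Φ.injective (by rw [h1, h])⟩
  rw [hset, hΦ.measure_preimage_equiv, image_add_left, measure_preimage_add,
    Measure.addHaar_image_linearMap]
  congr 2
  rw [LinearMap.det_toLin, Matrix.det_fin_two_of, ← sq_eq_sq_iff_abs_eq_abs]
  have hpar : ∀ x y : (ℝ ∙ u)ᗮ, ⟪b 0, x⟫_ℝ * ⟪b 0, y⟫_ℝ + ⟪b 1, x⟫_ℝ * ⟪b 1, y⟫_ℝ = ⟪x, y⟫_ℝ := by
    intro x y
    rw [← b.sum_inner_mul_inner x y, Fin.sum_univ_two, real_inner_comm (b 0) x,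
      real_inner_comm (b 1) x]
  have h1 := hpar (P e) (P e)
  have h2 := hpar (P f) (P f)
  have h3 := hpar (P e) (P f)
  rw [hP, proj_inner u hu, ← hP] at h1 h2 h3
  have h4 : (⟪b 0, P e⟫_ℝ * ⟪b 1, P f⟫_ℝ - ⟪b 0, P f⟫_ℝ * ⟪b 1, P e⟫_ℝ) ^ 2
      = (⟪e, e⟫_ℝ - ⟪u, e⟫_ℝ * ⟪u, e⟫_ℝ) * (⟪f, f⟫_ℝ - ⟪u, f⟫_ℝ * ⟪u, f⟫_ℝ)
        - (⟪e, f⟫_ℝ - ⟪u, e⟫_ℝ * ⟪u, f⟫_ℝ) ^ 2 := by
    rw [← h1, ← h2, ← h3]; ring
  rw [h4]
  have h5 := norm3 u
  rw [hu] at h5
  simp only [inner3, det3]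
  linear_combination (((e 1 * f 2 - e 2 * f 1) ^ 2 + (e 2 * f 0 - e 0 * f 2) ^ 2
    + (e 0 * f 1 - e 1 * f 0) ^ 2)) * h5

/-- closed standard triangle -/
def triC : Set (ℝ × ℝ) := {z | 0 ≤ z.1 ∧ 0 ≤ z.2 ∧ z.1 + z.2 ≤ 1}

/-- standard triangle without its base -/
def triO : Set (ℝ × ℝ) := {z | 0 ≤ z.1 ∧ 0 < z.2 ∧ z.1 + z.2 ≤ 1}

lemma lint_aux : ∫⁻ x in Icc (0 : ℝ) 1, ENNReal.ofReal (1 - x) = ENNReal.ofReal (1 / 2) := by
  rw [← ofReal_integral_eq_lintegral_ofReal]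
  · congr 1
    rw [integral_Icc_eq_integral_Ioc, ← intervalIntegral.integral_of_le zero_le_one,
      intervalIntegral.integral_sub (by simp) (by simp)]
    simp; norm_num
  · exact (by fun_prop : Continuous fun x : ℝ => 1 - x).integrableOn_Icc
  · filter_upwards [ae_restrict_mem measurableSet_Icc] with x hx
    simpa using hx.2

lemma vol_triC : volume triC = ENNReal.ofReal (1 / 2) := by
  have hm : MeasurableSet triC := by unfold triC; measurability
  rw [Measure.volume_eq_prod, Measure.prod_apply hm, ← lint_aux, ← lintegral_indicator measurableSet_Icc]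
  congr 1
  ext x
  by_cases hx : x ∈ Icc (0 : ℝ) 1
  · have : Prod.mk x ⁻¹' triC = Icc 0 (1 - x) := by
      ext y; simp only [triC, mem_preimage, mem_setOf_eq, mem_Icc]
      constructor
      · rintro ⟨_, h2, h3⟩; exact ⟨h2, by linarith⟩
      · rintro ⟨h2, h3⟩; exact ⟨hx.1, h2, by linarith⟩
    rw [this, indicator_of_mem hx]; simp
  · have : Prod.mk x ⁻¹' triC = ∅ := by
      ext y; simp only [triC, mem_preimage, mem_setOf_eq, mem_empty_iff_false, iff_false]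
      rintro ⟨h1, h2, h3⟩
      exact hx ⟨h1, by linarith⟩
    rw [this, indicator_of_notMem hx]; simp

lemma vol_triO : volume triO = ENNReal.ofReal (1 / 2) := by
  have hm : MeasurableSet triO := by unfold triO; measurability
  rw [Measure.volume_eq_prod, Measure.prod_apply hm, ← lint_aux, ← lintegral_indicator measurableSet_Icc]
  congr 1
  ext x
  by_cases hx : x ∈ Icc (0 : ℝ) 1
  · have : Prod.mk x ⁻¹' triO = Ioc 0 (1 - x) := by
      ext y; simp only [triO, mem_preimage, mem_setOf_eq, mem_Ioc]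
      constructor
      · rintro ⟨_, h2, h3⟩; exact ⟨h2, by linarith⟩
      · rintro ⟨h2, h3⟩; exact ⟨hx.1, h2, by linarith⟩
    rw [this, indicator_of_mem hx]; simp
  · have : Prod.mk x ⁻¹' triO = ∅ := by
      ext y; simp only [triO, mem_preimage, mem_setOf_eq, mem_empty_iff_false, iff_false]
      rintro ⟨h1, h2, h3⟩
      exact hx ⟨h1, by linarith⟩
    rw [this, indicator_of_notMem hx]; simp

lemma triC_compact : IsCompact triC := by
  have hc : IsClosed triC := by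
    unfold triC
    exact (isClosed_le continuous_const continuous_fst).inter
      ((isClosed_le continuous_const continuous_snd).inter
        (isClosed_le (continuous_fst.add continuous_snd) continuous_const))
  refine (isCompact_Icc (a := ((0, 0) : ℝ × ℝ)) (b := (1, 1))).of_isClosed_subset hc ?_
  rintro ⟨x, y⟩ ⟨h1, h2, h3⟩
  simp only at h1 h2 h3
  simp only [mem_Icc, Prod.mk_le_mk]
  refine ⟨⟨h1, h2⟩, by linarith, by linarith⟩

lemma tri_mem {K : Set E3} (hK : Convex ℝ K) {a b c : E3} (ha : a ∈ K) (hb : b ∈ K) (hc : c ∈ K)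
    {z : ℝ × ℝ} (hz : z ∈ triC) : a + z.1 • (b - a) + z.2 • (c - a) ∈ K := by
  obtain ⟨h1, h2, h3⟩ := hz
  have := hK.sum_mem (t := Finset.univ) (w := ![1 - z.1 - z.2, z.1, z.2]) (z := ![a, b, c])
    (by intro i _; fin_cases i <;> simp <;> linarith) (by simp [Fin.sum_univ_three]; ring)
    (by intro i _; fin_cases i <;> simp [*])
  convert this using 1
  simp [Fin.sum_univ_three]
  module

lemma tri_lower {K : Set E3} (hK : Convex ℝ K) {a b c : E3} (ha : a ∈ K) (hb : b ∈ K) (hc : c ∈ K)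
    (u : E3) (hu : ‖u‖ = 1) :
    ENNReal.ofReal (|det3 (b - a) (c - a) u| / 2) ≤ volume ((ℝ ∙ u)ᗮ.orthogonalProjectionOnto '' K) := by
  have h := vol_image u hu a (b - a) (c - a) triC
  rw [vol_triC, ← ENNReal.ofReal_mul (abs_nonneg _)] at h
  rw [div_eq_mul_one_div, ← h]
  refine measure_mono ?_
  rintro _ ⟨z, hz, rfl⟩
  exact ⟨_, tri_mem hK ha hb hc hz, rfl⟩

lemma det3_proj (u : E3) (hu : ‖u‖ = 1) (e x : E3) :
    det3 e ((ℝ ∙ u)ᗮ.orthogonalProjectionOnto x : (ℝ ∙ u)ᗮ) u = det3 e x u := by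
  rw [proj_val u hu]
  simp only [det3, PiLp.sub_apply, PiLp.smul_apply, smul_eq_mul]
  ring

lemma quad_aux {K : Set E3} (hK : Convex ℝ K) {a b c d : E3} (ha : a ∈ K) (hb : b ∈ K) (hc : c ∈ K)
    (hd : d ∈ K) (u : E3) (hu : ‖u‖ = 1) (h1 : 0 < det3 (b - a) (c - a) u)
    (h2 : det3 (b - a) (d - a) u ≤ 0) :
    ENNReal.ofReal (|det3 (b - a) (c - d) u| / 2)
      ≤ volume ((ℝ ∙ u)ᗮ.orthogonalProjectionOnto '' K) := by
  set P := (ℝ ∙ u)ᗮ.orthogonalProjectionOnto with hP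
  set Hp : Set (ℝ ∙ u)ᗮ := {z | det3 (b - a) a u < det3 (b - a) (z : E3) u} with hHp
  have hm : MeasurableSet Hp := by
    refine (isOpen_lt continuous_const ?_).measurableSet
    unfold det3; fun_prop
  have e1 := vol_image u hu a (b - a) (c - a) triO
  have e2 := vol_image u hu a (b - a) (d - a) triC
  rw [vol_triO, ← ENNReal.ofReal_mul (abs_nonneg _)] at e1
  rw [vol_triC, ← ENNReal.ofReal_mul (abs_nonneg _)] at e2
  have key : ∀ (x : E3) (z : ℝ × ℝ), det3 (b - a) (a + z.1 • (b - a) + z.2 • (x - a)) u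
      = det3 (b - a) a u + z.2 * det3 (b - a) (x - a) u := by
    intro x z
    simp only [det3, PiLp.sub_apply, PiLp.add_apply, PiLp.smul_apply, smul_eq_mul]
    ring
  rw [← measure_inter_add_diff _ hm]
  have h3 : |det3 (b - a) (c - d) u| / 2
      = |det3 (b - a) (c - a) u| * (1 / 2) + |det3 (b - a) (d - a) u| * (1 / 2) := by
    have : det3 (b - a) (c - d) u = det3 (b - a) (c - a) u - det3 (b - a) (d - a) u := by
      simp only [det3, PiLp.sub_apply]; ring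
    rw [this, abs_of_pos h1, abs_of_nonpos h2, abs_of_pos (by linarith)]
    ring
  rw [h3, ENNReal.ofReal_add (by positivity) (by positivity), ← e1, ← e2]
  refine add_le_add (measure_mono ?_) (measure_mono ?_)
  · rintro _ ⟨z, hz, rfl⟩
    refine ⟨⟨_, tri_mem hK ha hb hc ⟨hz.1, hz.2.1.le, hz.2.2⟩, rfl⟩, ?_⟩
    simp only [hHp, mem_setOf_eq]
    rw [det3_proj u hu, key]
    have := mul_pos hz.2.1 h1
    linarith
  · rintro _ ⟨z, hz, rfl⟩
    refine ⟨⟨_, tri_mem hK ha hb hd hz, rfl⟩, ?_⟩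
    simp only [hHp, mem_setOf_eq, not_lt]
    rw [det3_proj u hu, key]
    have := mul_nonneg hz.2.1 (neg_nonneg.2 h2)
    linarith

lemma quad_lower {K : Set E3} (hK : Convex ℝ K) {a b c d : E3} (ha : a ∈ K) (hb : b ∈ K)
    (hc : c ∈ K) (hd : d ∈ K) (u : E3) (hu : ‖u‖ = 1) :
    ENNReal.ofReal (|det3 (b - a) (c - d) u| / 2)
      ≤ volume ((ℝ ∙ u)ᗮ.orthogonalProjectionOnto '' K) := by
  have hsub : det3 (b - a) (c - d) u = det3 (b - a) (c - a) u - det3 (b - a) (d - a) u := by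
    simp only [det3, PiLp.sub_apply]; ring
  have hneg : |det3 (b - a) (d - c) u| = |det3 (b - a) (c - d) u| := by
    rw [← abs_neg]; congr 1; simp only [det3, PiLp.sub_apply]; ring
  have t1 := tri_lower hK ha hb hc u hu
  have t2 := tri_lower hK ha hb hd u hu
  by_cases h1 : 0 < det3 (b - a) (c - a) u <;> by_cases h2 : 0 < det3 (b - a) (d - a) u
  · rcases le_total (det3 (b - a) (c - a) u) (det3 (b - a) (d - a) u) with h | h
    · refine le_trans (ENNReal.ofReal_le_ofReal ?_) t2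
      rw [hsub, abs_of_nonpos (by linarith), abs_of_pos h2]; linarith
    · refine le_trans (ENNReal.ofReal_le_ofReal ?_) t1
      rw [hsub, abs_of_nonneg (by linarith), abs_of_pos h1]; linarith
  · exact quad_aux hK ha hb hc hd u hu h1 (not_lt.1 h2)
  · rw [← hneg]; exact quad_aux hK ha hb hd hc u hu h2 (not_lt.1 h1)
  · push Not at h1 h2
    rcases le_total (det3 (b - a) (c - a) u) (det3 (b - a) (d - a) u) with h | h
    · refine le_trans (ENNReal.ofReal_le_ofReal ?_) t1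
      rw [hsub, abs_of_nonpos (by linarith), abs_of_nonpos h1]; linarith
    · refine le_trans (ENNReal.ofReal_le_ofReal ?_) t2
      rw [hsub, abs_of_nonneg (by linarith), abs_of_nonpos h2]; linarith

end Vale.Agent.P243
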