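import Vale.Agent.P243.Area

open MeasureTheory Set
open scoped InnerProductSpace

namespace Vale.Agent.P243

/-- the regular tetrahedron -/
def tet : Set E3 := {X | |X 0 + X 1| ≤ 1 + X 2 ∧ |X 0 - X 1| ≤ 1 - X 2}

lemma tet_convex : Convex ℝ tet := by
  intro X hX Y hY a b ha hb hab
  obtain ⟨h1, h2⟩ := hX
  obtain ⟨h3, h4⟩ := hY
  rw [abs_le] at h1 h2 h3 h4
  simp only [tet, mem_setOf_eq, PiLp.add_apply, PiLp.smul_apply, smul_eq_mul, abs_le]
  refine ⟨⟨?_, ?_⟩, ?_, ?_⟩ <;> nlinarith [mul_nonneg ha (sub_nonneg.2 h1.1),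
    mul_nonneg ha (sub_nonneg.2 h1.2), mul_nonneg ha (sub_nonneg.2 h2.1),
    mul_nonneg ha (sub_nonneg.2 h2.2), mul_nonneg hb (sub_nonneg.2 h3.1),
    mul_nonneg hb (sub_nonneg.2 h3.2), mul_nonneg hb (sub_nonneg.2 h4.1),
    mul_nonneg hb (sub_nonneg.2 h4.2)]

lemma tet_compact : IsCompact tet := by
  have hc : IsClosed tet := by
    have h1 : IsClosed {X : E3 | |X 0 + X 1| ≤ 1 + X 2} := isClosed_le (by fun_prop) (by fun_prop)
    have h2 : IsClosed {X : E3 | |X 0 - X 1| ≤ 1 - X 2} := isClosed_le (by fun_prop) (by fun_prop)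
    exact h1.inter h2
  refine (isCompact_closedBall (0 : E3) 2).of_isClosed_subset hc ?_
  rintro X ⟨h1, h2⟩
  rw [abs_le] at h1 h2
  rw [mem_closedBall_zero_iff]
  have := norm3 X
  have h3 : X 0 ^ 2 ≤ 1 := by nlinarith
  have h4 : X 1 ^ 2 ≤ 1 := by nlinarith
  have h5 : X 2 ^ 2 ≤ 1 := by nlinarith
  nlinarith [norm_nonneg X]

lemma tet_int : (interior tet).Nonempty := by
  refine ⟨0, mem_interior.2 ⟨Metric.ball 0 (1 / 4), ?_, Metric.isOpen_ball, by simp⟩⟩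
  intro X hX
  rw [mem_ball_zero_iff] at hX
  have h0 := (PiLp.norm_apply_le X 0).trans hX.le
  have h1 := (PiLp.norm_apply_le X 1).trans hX.le
  have h2 := (PiLp.norm_apply_le X 2).trans hX.le
  rw [Real.norm_eq_abs, abs_le] at h0 h1 h2
  simp only [tet, mem_setOf_eq, abs_le]
  refine ⟨⟨?_, ?_⟩, ?_, ?_⟩ <;> linarith

lemma num_aux (x y z : ℝ) (hx0 : 0 ≤ x) (hy0 : 0 ≤ y) (hz0 : 0 ≤ z)
    (h : x ^ 2 + y ^ 2 + z ^ 2 = 1) (h1 : 2 * x ^ 2 < 1) (h2 : 2 * y ^ 2 < 1) (h3 : 2 * z ^ 2 < 1)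
    (hs : (x + y + z) ^ 2 < 2) : False := by
  have h4 : √2 ^ 2 = 2 := Real.sq_sqrt (by norm_num)
  have hs2 : 0 < √2 := by positivity
  have b : ∀ x : ℝ, 2 * x ^ 2 < 1 → √2 * x < 1 := by
    intro x hx
    refine lt_of_pow_lt_pow_left₀ 2 zero_le_one ?_
    rw [mul_pow, h4]; linarith
  have b4 : x + y + z < √2 := lt_of_pow_lt_pow_left₀ 2 hs2.le (by rw [h4]; exact hs)
  have c1 := mul_nonneg hx0 (sub_nonneg.2 (b x h1).le)
  have c2 := mul_nonneg hy0 (sub_nonneg.2 (b y h2).le)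
  have c3 := mul_nonneg hz0 (sub_nonneg.2 (b z h3).le)
  have c4 : √2 * (x ^ 2 + y ^ 2 + z ^ 2) = √2 := by rw [h, mul_one]
  linarith

lemma num_lower (a b c : ℝ) (h5 : 1 ^ 2 = a ^ 2 + b ^ 2 + c ^ 2) (p1 : (8 * c) ^ 2 < 32)
    (p2 : (-8 * a) ^ 2 < 32) (p3 : (8 * b) ^ 2 < 32) (p4 : (4 * (a - b + c)) ^ 2 < 32)
    (p5 : (4 * (a - b - c)) ^ 2 < 32) (p6 : (4 * (a + b - c)) ^ 2 < 32)
    (p7 : (4 * (a + b + c)) ^ 2 < 32) : False := by
  refine num_aux |a| |b| |c| (abs_nonneg _) (abs_nonneg _) (abs_nonneg _)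
    (by simp only [sq_abs]; linarith) (by simp only [sq_abs]; linarith)
    (by simp only [sq_abs]; linarith) (by simp only [sq_abs]; linarith) ?_
  rcases abs_cases a with ⟨h0, _⟩ | ⟨h0, _⟩ <;> rcases abs_cases b with ⟨h1, _⟩ | ⟨h1, _⟩
      <;> rcases abs_cases c with ⟨h2, _⟩ | ⟨h2, _⟩ <;> rw [h0, h1, h2] <;> linarith

lemma num_sq (D : ℝ) (h1 : |D| / 2 < 2 * √2) : D ^ 2 < 32 := by
  have h2 : √2 ^ 2 = 2 := Real.sq_sqrt (by norm_num)
  have h3 := abs_nonneg D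
  rw [← sq_abs]
  nlinarith

lemma tet_lower (u : E3) (hu : ‖u‖ = 1) :
    ENNReal.ofReal (2 * √2) ≤ volume ((ℝ ∙ u)ᗮ.orthogonalProjectionOnto '' tet) := by
  have h5 := norm3 u
  rw [hu] at h5
  let a : E3 := !₂[1, 1, 1]
  let b : E3 := !₂[-1, -1, 1]
  let c : E3 := !₂[1, -1, -1]
  let d : E3 := !₂[-1, 1, -1]
  have ha : a ∈ tet := by simp [tet, a]; norm_num
  have hb : b ∈ tet := by simp [tet, b]; norm_num
  have hc : c ∈ tet := by simp [tet, c]; norm_num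
  have hd : d ∈ tet := by simp [tet, d]; norm_num
  have q1 := quad_lower tet_convex ha hb hc hd u hu
  have q2 := quad_lower tet_convex ha hc hb hd u hu
  have q3 := quad_lower tet_convex ha hd hb hc u hu
  have t1 := tri_lower tet_convex ha hb hc u hu
  have t2 := tri_lower tet_convex ha hb hd u hu
  have t3 := tri_lower tet_convex ha hc hd u hu
  have t4 := tri_lower tet_convex hb hc hd u hu
  have e1 : det3 (b - a) (c - d) u = 8 * u 2 := by simp [det3, a, b, c, d]; norm_num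
  have e2 : det3 (c - a) (b - d) u = -8 * u 0 := by simp [det3, a, b, c, d]; ring
  have e3 : det3 (d - a) (b - c) u = 8 * u 1 := by simp [det3, a, b, c, d]; norm_num
  have e4 : det3 (b - a) (c - a) u = 4 * (u 0 - u 1 + u 2) := by simp [det3, a, b, c]; ring
  have e5 : det3 (b - a) (d - a) u = 4 * (u 0 - u 1 - u 2) := by simp [det3, a, b, d]; ring
  have e6 : det3 (c - a) (d - a) u = 4 * (u 0 + u 1 - u 2) := by simp [det3, a, c, d]; ring
  have e7 : det3 (c - b) (d - b) u = 4 * (u 0 + u 1 + u 2) := by simp [det3, b, c, d]; ring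
  rw [e1] at q1; rw [e2] at q2; rw [e3] at q3; rw [e4] at t1; rw [e5] at t2; rw [e6] at t3
  rw [e7] at t4
  by_contra hlt
  push Not at hlt
  have aux : ∀ D : ℝ, ENNReal.ofReal (|D| / 2) ≤ volume ((ℝ ∙ u)ᗮ.orthogonalProjectionOnto '' tet) →
      D ^ 2 < 32 := by
    intro D hD
    exact num_sq D ((ENNReal.ofReal_lt_ofReal_iff (by positivity)).1 (hD.trans_lt hlt))
  have p1 := aux _ q1
  have p2 := aux _ q2
  have p3 := aux _ q3
  have p4 := aux _ t1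
  have p5 := aux _ t2
  have p6 := aux _ t3
  have p7 := aux _ t4
  exact num_lower (u 0) (u 1) (u 2) h5 p1 p2 p3 p4 p5 p6 p7

noncomputable section

def η : ℝ := 1 / 1000
def hh : ℝ := 1 / 1000000
def w (j : ℕ) : ℝ := -1 + j * hh
def cc (m : ℝ) : ℝ := (m ^ 2 + m ^ 4) / 4
def RR (m : ℝ) : ℝ := 1 / 2 + η ^ 2 * (cc m + 1 / 200)
def NN : ℕ := 2000000

def vo (s : ℝ) : E3 := !₂[0, 0, s]
def ve (s R p : ℝ) : E3 := !₂[R * p, -s * (R * p), -2 * s * R]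
def vd (s p q : ℝ) : E3 :=
  !₂[1 + -s * η * (1 + p * q) / 2, s * (1 - -s * η * (1 + p * q) / 2), η * (p + q)]

lemma cover_one (s : ℝ) (hs : s ^ 2 = 1) (p q R : ℝ) (hpq : p < q) (hR : 0 < R) (X : E3)
    (x y r : ℝ) (hx : x = (X 0 + s * X 1) / 2) (hy : y = (X 0 - s * X 1) / 2)
    (hr : r = (1 - s * X 2) / 2)
    (h1 : 0 ≤ y - p * r + x * (s * η) * (1 - p ^ 2) / 2)
    (h2 : y - q * r + x * (s * η) * (1 - q ^ 2) / 2 ≤ 0)
    (h3 : r + s * η * ((p + q) / 2) * x ≤ R) :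
    ∃ z ∈ triC, X = vo s + z.1 • ve s R p + z.2 • ve s R q + x • vd s p q := by
  have hd : 0 < (q - p) * R := mul_pos (by linarith) hR
  set g1 := y - p * r + x * (s * η) * (1 - p ^ 2) / 2 with hg1
  set g2 := y - q * r + x * (s * η) * (1 - q ^ 2) / 2 with hg2
  have hsum : -g2 + g1 = (q - p) * (r + s * η * ((p + q) / 2) * x) := by rw [hg1, hg2]; ring
  have hqp : q - p ≠ 0 := by linarith
  refine ⟨(-g2 / ((q - p) * R), g1 / ((q - p) * R)), ⟨div_nonneg (by linarith) hd.le,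
    div_nonneg h1 hd.le, ?_⟩, ?_⟩
  · simp only
    rw [← add_div, div_le_one hd, hsum]
    exact mul_le_mul_of_nonneg_left h3 (by linarith)
  · have k1 : -g2 / ((q - p) * R) * R + g1 / ((q - p) * R) * R = r + s * η * ((p + q) / 2) * x := by
      field_simp
      linear_combination 2 * hsum
    have k2 : -g2 / ((q - p) * R) * (R * p) + g1 / ((q - p) * R) * (R * q)
        = y + s * η * (1 + p * q) / 2 * x := by
      field_simp
      rw [hg1, hg2]; ring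
    ext i
    fin_cases i
    · simp [vo, ve, vd]
      linear_combination -k2 - hx - hy
    · simp [vo, ve, vd]
      linear_combination s * k2 - s * hx + s * hy - (X 1) * hs
    · simp [vo, ve, vd]
      linear_combination 2 * s * k1 + 2 * s * hr - (X 2 - η * (p + q) * x) * hs

lemma exists_cell (G : ℕ → ℝ) (N : ℕ) (h0 : 0 ≤ G 0) (hN : G (N + 1) ≤ 0) :
    ∃ j < N + 1, 0 ≤ G j ∧ G (j + 1) ≤ 0 := by
  induction N with
  | zero => exact ⟨0, by omega, h0, hN⟩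
  | succ N ih =>
    by_cases h : G (N + 1) ≤ 0
    · obtain ⟨j, hj, h2⟩ := ih h
      exact ⟨j, by omega, h2⟩
    · exact ⟨N + 1, by omega, (not_le.1 h).le, hN⟩

lemma mid_est (e p x y r : ℝ) (he : |e| ≤ η) (hp : -1 ≤ p) (hq : p + hh ≤ 1) (hx : |x| ≤ 1)
    (hr0 : 0 ≤ r) (hr : r ≤ 1)
    (h1 : 0 ≤ y - p * r + x * e * (1 - p ^ 2) / 2)
    (h2 : y - (p + hh) * r + x * e * (1 - (p + hh) ^ 2) / 2 ≤ 0) :
    |y - (p + hh / 2) * r + x * e * (1 - (p + hh / 2) ^ 2) / 2| ≤ hh := by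
  have hxe : |x * e| ≤ η := by
    rw [abs_mul]; nlinarith [abs_nonneg x, abs_nonneg e]
  set k := x * e with hk
  rw [abs_le] at hxe ⊢
  unfold η hh at *
  constructor
  · nlinarith [mul_nonneg (sub_nonneg.2 hxe.1) (sub_nonneg.2 hp),
      mul_nonneg (sub_nonneg.2 hxe.2) (sub_nonneg.2 hp),
      mul_nonneg (sub_nonneg.2 hxe.1) (sub_nonneg.2 hq),
      mul_nonneg (sub_nonneg.2 hxe.2) (sub_nonneg.2 hq)]
  · nlinarith [mul_nonneg (sub_nonneg.2 hxe.1) (sub_nonneg.2 hp),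
      mul_nonneg (sub_nonneg.2 hxe.2) (sub_nonneg.2 hp),
      mul_nonneg (sub_nonneg.2 hxe.1) (sub_nonneg.2 hq),
      mul_nonneg (sub_nonneg.2 hxe.2) (sub_nonneg.2 hq)]

lemma abs_mul_le_of {a b A B : ℝ} (ha : |a| ≤ A) (hb : |b| ≤ B) : |a * b| ≤ A * B := by
  rw [abs_mul]; exact mul_le_mul ha hb (abs_nonneg _) ((abs_nonneg _).trans ha)

lemma a1 {m : ℝ} (hm : |m| ≤ 1) : |1 - m ^ 2| ≤ 1 := by
  have := (sq_le_one_iff_abs_le_one m).2 hm
  have := sq_nonneg m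
  rw [abs_le]; constructor <;> linarith

lemma a2 {m : ℝ} (hm : |m| ≤ 1) : |(1 + m ^ 2) / 2| ≤ 1 := by
  have := (sq_le_one_iff_abs_le_one m).2 hm
  have := sq_nonneg m
  rw [abs_le]; constructor <;> linarith

lemma a3 {m : ℝ} (hm : |m| ≤ 1) : cc m ≤ 1 / 2 := by
  have := (sq_le_one_iff_abs_le_one m).2 hm
  have := sq_nonneg m
  unfold cc
  nlinarith

lemma a4 (m n : ℝ) : (m ^ 2 + n ^ 2 + 2 * m ^ 2 * n ^ 2) / 4 ≤ cc m + cc n := by
  unfold cc; nlinarith [sq_nonneg (m ^ 2 - n ^ 2)]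

set_option maxHeartbeats 1000000 in
lemma key_ineq (m n x y r e1 e2 : ℝ) (hm : |m| ≤ 1) (hn : |n| ≤ 1) (hx : |x| ≤ 1 - r) (hy : |y| ≤ r)
    (h1 : y - m * r + x * η * (1 - m ^ 2) / 2 = e1) (he1 : |e1| ≤ hh)
    (h2 : x - n * (1 - r) - y * η * (1 - n ^ 2) / 2 = e2) (he2 : |e2| ≤ hh)
    (h3 : RR m < r + η * m * x) (h4 : RR n < (1 - r) - η * n * y) : False := by
  have hη : η = 1 / 1000 := rfl
  have hhh : hh = 1 / 1000000 := rfl
  set α := r + η * m * x - 1 / 2 with hα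
  set β := (1 - r) - η * n * y - 1 / 2 with hβ
  have hcm : 0 ≤ cc m := by unfold cc; positivity
  have hcn : 0 ≤ cc n := by unfold cc; positivity
  have hα1 : η ^ 2 * (cc m + 1 / 200) < α := by unfold RR at h3; linarith
  have hβ1 : η ^ 2 * (cc n + 1 / 200) < β := by unfold RR at h4; linarith
  have hα0 : 0 < α := lt_of_le_of_lt (by positivity) hα1
  have hβ0 : 0 < β := lt_of_le_of_lt (by positivity) hβ1
  have hx1 : |x| ≤ 1 := by linarith [abs_nonneg y]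
  have hy1 : |y| ≤ 1 := by linarith [abs_nonneg x]
  have hmx := abs_mul_le_of hm (le_refl |x|)
  have hny := abs_mul_le_of hn (le_refl |y|)
  have hsum : α + β = η * (m * x - n * y) := by rw [hα, hβ]; ring
  have hsum1 : α + β ≤ η := by
    rw [hsum, hη]
    have := (abs_le.1 hmx).2
    have := (abs_le.1 hny).1
    linarith
  have hm2 := a1 hm
  have hn2 := a1 hn
  have hr2 : |r - 1 / 2| ≤ 2 * η := by
    have := abs_le.1 hmx
    rw [abs_le, hη]; rw [hη] at hα hsum1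
    constructor <;> linarith
  set δ1 := y - m / 2 with hδ1
  set δ2 := x - n / 2 with hδ2
  have hd1 : |δ1| ≤ 3 * η := by
    have k1 := abs_le.1 (abs_mul_le_of hm hr2)
    have k2 := abs_le.1 (abs_mul_le_of hx1 hm2)
    have k3 := abs_le.1 he1
    have : δ1 = m * (r - 1 / 2) - η / 2 * (x * (1 - m ^ 2)) + e1 := by rw [hδ1, ← h1]; ring
    rw [this, abs_le, hη]; rw [hη] at k1; rw [hhh] at k3
    constructor <;> linarith
  have hd2 : |δ2| ≤ 3 * η := by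
    have k1 := abs_le.1 (abs_mul_le_of hn hr2)
    have k2 := abs_le.1 (abs_mul_le_of hy1 hn2)
    have k3 := abs_le.1 he2
    have : δ2 = -(n * (r - 1 / 2)) + η / 2 * (y * (1 - n ^ 2)) + e2 := by rw [hδ2, ← h2]; ring
    rw [this, abs_le, hη]; rw [hη] at k1; rw [hhh] at k3
    constructor <;> linarith
  have hid : α + β = η * (m * n * (β - α)) + η ^ 2 * ((m ^ 2 + n ^ 2 + 2 * m ^ 2 * n ^ 2) / 4
      + m * ((1 + n ^ 2) / 2) * δ1 + n * ((1 + m ^ 2) / 2) * δ2) + η * (m * e2 - n * e1) := by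
    rw [hα, hβ, hδ1, hδ2, ← h1, ← h2]; ring
  have k1 : |m * n * (β - α)| ≤ 1 * 1 * (α + β) :=
    abs_mul_le_of (abs_mul_le_of hm hn) (by rw [abs_le]; constructor <;> linarith)
  have hn3 := a2 hn
  have hm3 := a2 hm
  have k2 := abs_mul_le_of (abs_mul_le_of hm hn3) hd1
  have k3 := abs_mul_le_of (abs_mul_le_of hn hm3) hd2
  have k4 := abs_mul_le_of hm he2
  have k5 := abs_mul_le_of hn he1
  have k6 := a4 m n
  have k7 := a3 hm
  have k8 := a3 hn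
  rw [abs_le] at k1 k2 k3 k4 k5
  rw [hη] at hid hα1 hβ1 k2 k3
  rw [hhh] at k4 k5
  linarith [k1.2, k2.2, k3.2, k4.2, k5.1]

lemma w_succ (j : ℕ) : w (j + 1) = w j + hh := by unfold w; push_cast; ring

lemma w_low (j : ℕ) : -1 ≤ w j := by
  unfold w hh; have : (0 : ℝ) ≤ j := Nat.cast_nonneg j; linarith

lemma w_up {j : ℕ} (hj : j < NN) : w j + hh ≤ 1 := by
  unfold w hh
  have : (j : ℝ) + 1 ≤ 2000000 := by exact_mod_cast hj
  linarith

lemma RR_pos (m : ℝ) : 0 < RR m := by unfold RR cc; positivity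

lemma cover (X : E3) (hX : X ∈ tet) : ∃ s : Bool, ∃ j < NN, ∃ z ∈ triC, ∃ t : ℝ,
    X = vo (if s then 1 else -1) + z.1 • ve (if s then 1 else -1) (RR (w j + hh / 2)) (w j)
      + z.2 • ve (if s then 1 else -1) (RR (w j + hh / 2)) (w j + hh)
      + t • vd (if s then 1 else -1) (w j) (w j + hh) := by
  obtain ⟨h1, h2⟩ := hX
  set x := (X 0 + X 1) / 2 with hx
  set y := (X 0 - X 1) / 2 with hy
  set r := (1 - X 2) / 2 with hr
  have hx1 : |x| ≤ 1 - r := by rw [hx, hr, abs_div, abs_two]; linarith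
  have hy1 : |y| ≤ r := by rw [hy, hr, abs_div, abs_two]; linarith
  have hw0 : w 0 = -1 := by simp [w]
  have hwN : w (1999999 + 1) = 1 := by unfold w hh; norm_num
  have hη0 : 0 < η := by unfold η; norm_num
  have hh0 : 0 < hh := by unfold hh; norm_num
  obtain ⟨j, hj, a1, a2⟩ := exists_cell (fun j => y - w j * r + x * η * (1 - w j ^ 2) / 2) 1999999
    (by simp only [hw0]; linarith [neg_abs_le y]) (by simp only [hwN]; linarith [le_abs_self y])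
  obtain ⟨k, hk, b1, b2⟩ := exists_cell
    (fun j => x - w j * (1 - r) + y * (-η) * (1 - w j ^ 2) / 2) 1999999
    (by simp only [hw0]; linarith [neg_abs_le x]) (by simp only [hwN]; linarith [le_abs_self x])
  simp only [w_succ] at a2 b2
  have hj' : j < NN := hj
  have hk' : k < NN := hk
  by_cases c1 : r + η * (w j + hh / 2) * x ≤ RR (w j + hh / 2)
  · obtain ⟨z, hz, hz2⟩ := cover_one 1 (by norm_num) (w j) (w j + hh) (RR (w j + hh / 2))
      (by linarith) (RR_pos _) X x y r (by rw [hx]; ring) (by rw [hy]; ring) (by rw [hr]; ring)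
      (by simpa using a1) (by simpa using a2) (by convert c1 using 2; ring)
    exact ⟨true, j, hj', z, hz, x, hz2⟩
  by_cases c2 : (1 - r) - η * (w k + hh / 2) * y ≤ RR (w k + hh / 2)
  · obtain ⟨z, hz, hz2⟩ := cover_one (-1) (by norm_num) (w k) (w k + hh) (RR (w k + hh / 2))
      (by linarith) (RR_pos _) X y x (1 - r) (by rw [hy]; ring) (by rw [hx]; ring)
      (by rw [hr]; ring) (by simpa using b1) (by simpa using b2) (by convert c2 using 1; ring)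
    exact ⟨false, k, hk', z, hz, y, hz2⟩
  exfalso
  have hr0 : 0 ≤ r := (abs_nonneg _).trans hy1
  have hr1 : 0 ≤ 1 - r := (abs_nonneg _).trans hx1
  have m1 := mid_est η (w j) x y r (by rw [abs_of_pos hη0]) (w_low j) (w_up hj') (by linarith) hr0
    (by linarith) a1 a2
  have m2 := mid_est (-η) (w k) y x (1 - r) (by rw [abs_neg, abs_of_pos hη0]) (w_low k) (w_up hk')
    (by linarith) hr1 (by linarith) b1 b2
  have := w_low j
  have := w_low k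
  have := w_up hj'
  have := w_up hk'
  refine key_ineq (w j + hh / 2) (w k + hh / 2) x y r _ _ (by rw [abs_le]; constructor <;> linarith)
    (by rw [abs_le]; constructor <;> linarith) hx1 hy1 rfl m1 (by ring) m2 (not_le.1 c1)
    (not_le.1 c2)

def Φ (p : ℝ) : ℝ := (7 * p ^ 5 / 5 - 2 * p ^ 3 / 3 - p) / 32

lemma inv_sqrt_le (s : ℝ) (hs0 : 0 ≤ s) (hs : s ≤ 1 / 10) : (√(1 + s))⁻¹ ≤ 1 - s / 2 + s ^ 2 := by
  have h1 : 0 < √(1 + s) := Real.sqrt_pos.2 (by linarith)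
  have h2 : 0 < 1 - s / 2 + s ^ 2 := by nlinarith
  rw [inv_le_iff_one_le_mul₀ h1, mul_comm, ← div_le_iff₀ h2]
  refine Real.le_sqrt_of_sq_le ?_
  rw [div_pow, div_le_iff₀ (by positivity)]
  nlinarith [mul_nonneg hs0 hs0, mul_nonneg hs0 (mul_nonneg hs0 hs0), pow_nonneg hs0 4,
    pow_nonneg hs0 5]

lemma b1 (k s0 : ℝ) (hk0 : 0 ≤ k) (hk1 : k ≤ 1) (hs1 : 0 ≤ s0) (hs2 : s0 ≤ 3) :
    (1 / 2 + η ^ 2 * k) ^ 2 * (1 - η ^ 2 * s0 / 2 + (η ^ 2 * s0) ^ 2)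
      ≤ 1 / 4 + η ^ 2 * (k - s0 / 8 + 1 / 10000) := by
  have a1 := mul_nonneg hk0 hs1
  have a2 : k ^ 2 ≤ 1 := by nlinarith
  have a3 : s0 ^ 2 ≤ 9 := by nlinarith
  have a4 : k * s0 ^ 2 ≤ 1 * 9 := by gcongr
  have a5 : k ^ 2 * s0 ^ 2 ≤ 1 * 9 := by gcongr
  have a6 : 0 ≤ k ^ 2 * s0 := by positivity
  unfold η
  linarith

lemma b2 (v : ℝ) (hv0 : 0 ≤ v) (hv1 : v ≤ 1) :
    hh * ((v + v ^ 2) / 4 + 1 / 200 - ((1 + v - hh ^ 2 / 4) ^ 2 / 4 + 2 * v) / 8 + 1 / 10000)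
      ≤ hh * ((7 * v ^ 2 - 2 * v - 1) / 32
        + hh ^ 2 * ((7 * v / 2 - 1 / 6) / 32) + hh ^ 4 * (7 / 80 / 32)) + hh * (6 / 1000) := by
  unfold hh
  linarith

lemma b3 (v : ℝ) (hv0 : 0 ≤ v) (hv1 : v ≤ 1) : (1 + v - hh ^ 2 / 4) ^ 2 / 4 + 2 * v ≤ 3 := by
  unfold hh
  nlinarith

lemma b4 (v : ℝ) (hv0 : 0 ≤ v) (hv1 : v ≤ 1) : (v + v ^ 2) / 4 + 1 / 200 ≤ 1 := by
  nlinarith

lemma sector_est (p : ℝ) (hp : -1 ≤ p) (hq : p + hh ≤ 1) :
    RR (p + hh / 2) ^ 2 * hh * (√(1 + η ^ 2 * ((1 + p * (p + hh)) ^ 2 / 4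
      + (p + (p + hh)) ^ 2 / 2)))⁻¹
      ≤ hh / 4 + η ^ 2 * (Φ (p + hh) - Φ p + hh * (6 / 1000)) := by
  have hη : η = 1 / 1000 := rfl
  have hhh : hh = 1 / 1000000 := rfl
  set m := p + hh / 2 with hm
  have hp' : p = m - hh / 2 := by rw [hm]; ring
  have hm1 : m ^ 2 ≤ 1 := by
    rw [hhh] at hm hq
    exact (sq_le_one_iff_abs_le_one m).2 (abs_le.2 ⟨by linarith, by linarith⟩)
  set v := m ^ 2 with hv
  have hv0 : 0 ≤ v := sq_nonneg m
  set s0 := (1 + p * (p + hh)) ^ 2 / 4 + (p + (p + hh)) ^ 2 / 2 with hs0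
  have hs0' : s0 = (1 + v - hh ^ 2 / 4) ^ 2 / 4 + 2 * v := by rw [hs0, hv, hp']; ring
  have hs1 : 0 ≤ s0 := by rw [hs0]; positivity
  have hs2 : s0 ≤ 3 := by rw [hs0']; exact b3 v hv0 hm1
  have h1 := inv_sqrt_le (η ^ 2 * s0) (by positivity) (by rw [hη]; linarith)
  set k := cc m + 1 / 200 with hk
  have hk' : k = (v + v ^ 2) / 4 + 1 / 200 := by rw [hk, cc, hv]; ring
  have hk0 : 0 ≤ k := by rw [hk']; positivity
  have hk1 : k ≤ 1 := by rw [hk']; exact b4 v hv0 hm1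
  have hR : RR m = 1 / 2 + η ^ 2 * k := rfl
  have h2 : RR m ^ 2 * (1 - η ^ 2 * s0 / 2 + (η ^ 2 * s0) ^ 2)
      ≤ 1 / 4 + η ^ 2 * (k - s0 / 8 + 1 / 10000) := by
    rw [hR]; exact b1 k s0 hk0 hk1 hs1 hs2
  have h3 : hh * (k - s0 / 8 + 1 / 10000) ≤ Φ (p + hh) - Φ p + hh * (6 / 1000) := by
    have : Φ (p + hh) - Φ p = hh * ((7 * v ^ 2 - 2 * v - 1) / 32
        + hh ^ 2 * ((7 * v / 2 - 1 / 6) / 32) + hh ^ 4 * (7 / 80 / 32)) := by
      rw [Φ, Φ, hv, hp']; ring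
    rw [this, hk', hs0']
    exact b2 v hv0 hm1
  have hh0 : 0 < hh := by rw [hhh]; norm_num
  calc RR m ^ 2 * hh * (√(1 + η ^ 2 * s0))⁻¹
      ≤ RR m ^ 2 * hh * (1 - η ^ 2 * s0 / 2 + (η ^ 2 * s0) ^ 2) := by gcongr
    _ = hh * (RR m ^ 2 * (1 - η ^ 2 * s0 / 2 + (η ^ 2 * s0) ^ 2)) := by ring
    _ ≤ hh * (1 / 4 + η ^ 2 * (k - s0 / 8 + 1 / 10000)) := by gcongr
    _ = hh / 4 + η ^ 2 * (hh * (k - s0 / 8 + 1 / 10000)) := by ring
    _ ≤ _ := by gcongr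

lemma vd_norm (s : ℝ) (hs : s ^ 2 = 1) (p q : ℝ) :
    ‖vd s p q‖ = √2 * √(1 + η ^ 2 * ((1 + p * q) ^ 2 / 4 + (p + q) ^ 2 / 2)) := by
  rw [← Real.sqrt_mul (by norm_num), ← Real.sqrt_sq (norm_nonneg (vd s p q)), norm3]
  congr 1
  simp [vd]
  linear_combination ((1 + s * η * (1 + p * q) / 2) ^ 2 + η ^ 2 * (1 + p * q) ^ 2 / 2) * hs

lemma vd_pos (s : ℝ) (hs : s ^ 2 = 1) (p q : ℝ) : 0 < ‖vd s p q‖ := by
  rw [vd_norm s hs]; positivity

def sg (s : Bool) : ℝ := if s then 1 else -1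

lemma sg_sq (s : Bool) : sg s ^ 2 = 1 := by cases s <;> simp [sg]

def uu (i : Bool × Fin NN) : E3 :=
  ‖vd (sg i.1) (w i.2) (w i.2 + hh)‖⁻¹ • vd (sg i.1) (w i.2) (w i.2 + hh)

lemma uu_norm (i : Bool × Fin NN) : ‖uu i‖ = 1 := by
  rw [uu, norm_smul, norm_inv, norm_norm, inv_mul_cancel₀ (vd_pos _ (sg_sq _) _ _).ne']

def BB (i : Bool × Fin NN) : Set (ℝ ∙ uu i)ᗮ :=
  (fun z : ℝ × ℝ => (ℝ ∙ uu i)ᗮ.orthogonalProjectionOnto (vo (sg i.1)
    + z.1 • ve (sg i.1) (RR (w i.2 + hh / 2)) (w i.2)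
    + z.2 • ve (sg i.1) (RR (w i.2 + hh / 2)) (w i.2 + hh))) '' triC

lemma BB_compact (i : Bool × Fin NN) : IsCompact (BB i) :=
  triC_compact.image (by fun_prop)

lemma BB_vol (i : Bool × Fin NN) : volume (BB i)
    ≤ ENNReal.ofReal (√2 * (hh / 4 + η ^ 2 * (Φ (w i.2 + hh) - Φ (w i.2) + hh * (6 / 1000)))) := by
  rw [BB, vol_image _ (uu_norm i), vol_triC, ← ENNReal.ofReal_mul (abs_nonneg _)]
  refine ENNReal.ofReal_le_ofReal ?_
  have h := sector_est (w i.2) (w_low _) (w_up i.2.2)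
  set p := w i.2 with hp
  set R := RR (p + hh / 2) with hR
  have hs := sg_sq i.1
  set s := sg i.1 with hs'
  have hh0 : 0 < hh := by unfold hh; norm_num
  have h1 : det3 (ve s R p) (ve s R (p + hh)) (uu i) = -(‖vd s p (p + hh)‖⁻¹ * (4 * R ^ 2 * hh)) := by
    simp only [uu, ← hs', ← hp]
    generalize ‖vd s p (p + hh)‖⁻¹ = c
    simp [det3, ve, vd]
    linear_combination (-4 * c * R ^ 2 * hh) * hs
  rw [h1, abs_neg, abs_of_nonneg (by positivity), vd_norm s hs, mul_inv]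
  have h2 : (√2)⁻¹ * 2 = √2 := by
    have h3 : √2 * √2 = 2 := Real.mul_self_sqrt (by norm_num)
    have h4 : √2 ≠ 0 := by positivity
    field_simp
    linarith
  calc _ = ((√2)⁻¹ * 2) * (R ^ 2 * hh * (√(1 + η ^ 2 * ((1 + p * (p + hh)) ^ 2 / 4
      + (p + (p + hh)) ^ 2 / 2)))⁻¹) := by ring
    _ ≤ _ := by rw [h2]; gcongr

lemma BB_sum : ∑ i, volume (BB i) < ENNReal.ofReal √2 := by
  have hnn : ∀ j : Fin NN, 0 ≤ √2 * (hh / 4 + η ^ 2 * (Φ (w j + hh) - Φ (w j) + hh * (6 / 1000))) :=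
    fun j => mul_nonneg (by positivity) (le_trans (by unfold hh; positivity)
      (sector_est (w j) (w_low _) (w_up j.2)))
  refine (Finset.sum_le_sum fun i _ => BB_vol i).trans_lt ?_
  rw [← ENNReal.ofReal_sum_of_nonneg (fun i _ => hnn i.2),
    ENNReal.ofReal_lt_ofReal_iff (by positivity), Fintype.sum_prod_type]
  simp only [Finset.sum_const, Finset.card_univ, Fintype.card_bool]
  rw [← Finset.mul_sum, Fin.sum_univ_eq_sum_range
    (fun j => hh / 4 + η ^ 2 * (Φ (w j + hh) - Φ (w j) + hh * (6 / 1000))),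
    Finset.sum_add_distrib, ← Finset.mul_sum, Finset.sum_add_distrib]
  simp only [← w_succ]
  rw [Finset.sum_range_sub (fun j => Φ (w j))]
  have hw0 : w 0 = -1 := by simp [w]
  have hwN : w NN = 1 := by unfold w hh NN; norm_num
  simp only [Finset.sum_const, Finset.card_range, hw0, hwN, nsmul_eq_mul]
  have : (0 : ℝ) < √2 := by positivity
  unfold NN hh η Φ
  norm_num
  nlinarith

lemma BB_cover : tet ⊆ ⋃ i, {x | ∃ b ∈ BB i, ∃ t : ℝ, x = (b : E3) + t • uu i} := by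
  intro X hX
  obtain ⟨s, j, hj, z, hz, t, h⟩ := cover X hX
  refine mem_iUnion.2 ⟨(s, ⟨j, hj⟩), _, ⟨z, hz, rfl⟩, ?_⟩
  simp only
  rw [proj_val _ (uu_norm _)]
  have hpos := vd_pos (sg s) (sg_sq s) (w j) (w j + hh)
  have hd : vd (sg s) (w j) (w j + hh) = ‖vd (sg s) (w j) (w j + hh)‖ • uu (s, ⟨j, hj⟩) := by
    simp only [uu]
    rw [smul_smul, mul_inv_cancel₀ hpos.ne', one_smul]
  refine ⟨⟪uu (s, ⟨j, hj⟩), vo (sg s) + z.1 • ve (sg s) (RR (w j + hh / 2)) (w j)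
    + z.2 • ve (sg s) (RR (w j + hh / 2)) (w j + hh)⟫_ℝ + t * ‖vd (sg s) (w j) (w j + hh)‖, ?_⟩
  rw [add_smul, mul_smul, ← hd, h]
  simp only [sg]
  abel

end

end Vale.Agent.P243
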